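import Mathlib

/-!
# P331, row D2 of the `TripleLog` line: the numerical chain

`u j ≤ clog₂ (u (j+1)) + u (j+1) / (2 m)` for `2 m - 1` steps from `u 0 ≥ 1` forces
`u (2 m - 1) > m ^ m`.
-/

namespace Vale.Agent.P331.H342

/-- One step: `U ≤ clog₂ v + v / (2 m)` implies `m U ≤ v` or `2 ^ ((U + 1) / 2 - 1) < v`. -/
theorem step {m U v : ℕ} (hm : 1 ≤ m) (hU : 1 ≤ U) (h : U ≤ Nat.clog 2 v + v / (2 * m)) :
    m * U ≤ v ∨ 2 ^ ((U + 1) / 2 - 1) < v := by
  by_cases hv : m * U ≤ v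
  · exact Or.inl hv
  · right
    push Not at hv
    have h0 : v / m < U := by
      rw [Nat.div_lt_iff_lt_mul (by omega)]
      linarith [mul_comm m U]
    have h1 : v / (2 * m) = v / m / 2 := by
      rw [mul_comm 2 m, Nat.div_div_eq_div_mul]
    have h2 : (U + 1) / 2 - 1 < Nat.clog 2 v := by omega
    exact (Nat.lt_clog_iff_pow_lt (by norm_num)).1 h2

theorem two_mul_le_pow : ∀ k : ℕ, 6 ≤ k → 2 * (2 * k) ≤ 2 ^ (k - 1) := by
  intro k hk
  induction k, hk using Nat.le_induction with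
  | base => norm_num
  | succ n hn ih =>
    have h1 : 2 ^ (n + 1 - 1) = 2 * 2 ^ (n - 1) := by
      rw [← pow_succ']
      congr 1
      omega
    omega

theorem sq_le_pow : ∀ k : ℕ, 10 ≤ k → (2 * k) ^ 2 ≤ 2 ^ (k - 1) := by
  intro k hk
  induction k, hk using Nat.le_induction with
  | base => norm_num
  | succ n hn ih =>
    have h1 : 2 ^ (n + 1 - 1) = 2 * 2 ^ (n - 1) := by
      rw [← pow_succ']
      congr 1
      omega
    rw [h1]
    nlinarith

/-- Phase 1: doubling. -/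
theorem two_mul_le {m U v : ℕ} (hm : 2 ≤ m) (hU : 12 ≤ U)
    (h : U ≤ Nat.clog 2 v + v / (2 * m)) : 2 * U ≤ v := by
  rcases step (by omega) (by omega) h with h1 | h1
  · exact le_trans (Nat.mul_le_mul_right U hm) h1
  · have h2 := two_mul_le_pow ((U + 1) / 2) (by omega)
    omega

/-- Phase 2: growth by the factor `m`. -/
theorem mul_le {m U v : ℕ} (hm : 1 ≤ m) (hU : 20 ≤ U) (hmU : m ≤ U)
    (h : U ≤ Nat.clog 2 v + v / (2 * m)) : m * U ≤ v := by
  rcases step hm (by omega) h with h1 | h1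
  · exact h1
  · have h2 := sq_le_pow ((U + 1) / 2) (by omega)
    have h3 : U ≤ 2 * ((U + 1) / 2) := by omega
    have h4 : m * U ≤ (2 * ((U + 1) / 2)) ^ 2 := by
      rw [sq]
      exact Nat.mul_le_mul (le_trans hmU h3) h3
    omega

theorem num_chain (m : ℕ) (hm : 16 ≤ m) (u : ℕ → ℕ)
    (hu : ∀ j < 2 * m - 1, u j ≤ Nat.clog 2 (u (j + 1)) + u (j + 1) / (2 * m)) (h0 : 1 ≤ u 0) :
    m ^ m < u (2 * m - 1) := by
  have key : ∀ (j : ℕ), j < 2 * m - 1 → ∀ k : ℕ, k ≤ 4 → k + 1 ≤ u j → 2 ^ k + 1 ≤ u (j + 1) := by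
    intro j hj k hk hk1
    by_contra hcon
    push Not at hcon
    have h1 : u (j + 1) ≤ 2 ^ k := by omega
    have h2 : Nat.clog 2 (u (j + 1)) ≤ k := Nat.clog_le_of_le_pow h1
    have h3 : 2 ^ k ≤ 2 ^ 4 := Nat.pow_le_pow_right (by norm_num) hk
    have h4 : u (j + 1) / (2 * m) = 0 := Nat.div_eq_of_lt (by omega)
    have h5 := hu j hj
    omega
  have h1 : 2 ≤ u 1 := key 0 (by omega) 0 (by omega) h0
  have h2 : 3 ≤ u 2 := key 1 (by omega) 1 (by omega) h1
  have h3 : 5 ≤ u 3 := key 2 (by omega) 2 (by omega) h2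
  have h4 : 17 ≤ u 4 := key 3 (by omega) 4 (by omega) h3
  have p1 : ∀ j : ℕ, j ≤ m - 5 → 17 * 2 ^ j ≤ u (4 + j) := by
    intro j
    induction j with
    | zero => intro _; simpa using h4
    | succ j ih =>
      intro hj
      have h5 := ih (by omega)
      have h6 : 1 ≤ 2 ^ j := Nat.one_le_two_pow
      have h7 := two_mul_le (m := m) (by omega) (by omega) (hu (4 + j) (by omega))
      rw [pow_succ]
      have h8 : 4 + (j + 1) = 4 + j + 1 := by ring
      rw [h8]
      omega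
  have h5 := p1 (m - 5) le_rfl
  have h6 : 4 + (m - 5) = m - 1 := by omega
  rw [h6] at h5
  have h7 : m - 5 < 2 ^ (m - 5) := Nat.lt_two_pow_self
  have h8 : m ≤ u (m - 1) ∧ 20 ≤ u (m - 1) := by omega
  have p2 : ∀ k : ℕ, k ≤ m → u (m - 1) * m ^ k ≤ u (m - 1 + k) := by
    intro k
    induction k with
    | zero => intro _; simp
    | succ k ih =>
      intro hk
      have h9 := ih (by omega)
      have h10 : u (m - 1) ≤ u (m - 1 + k) :=
        le_trans (Nat.le_mul_of_pos_right _ (pow_pos (by omega) k)) h9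
      have h11 := mul_le (m := m) (by omega) (le_trans h8.2 h10) (le_trans h8.1 h10)
        (hu (m - 1 + k) (by omega))
      calc u (m - 1) * m ^ (k + 1) = m * (u (m - 1) * m ^ k) := by ring
        _ ≤ m * u (m - 1 + k) := Nat.mul_le_mul_left m h9
        _ ≤ u (m - 1 + (k + 1)) := h11
  have h9 := p2 m le_rfl
  have h10 : m - 1 + m = 2 * m - 1 := by omega
  rw [h10] at h9
  have h11 : 0 < m ^ m := pow_pos (by omega) m
  calc m ^ m < 20 * m ^ m := by omega
    _ ≤ u (m - 1) * m ^ m := Nat.mul_le_mul_right _ h8.2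
    _ ≤ u (2 * m - 1) := h9

end Vale.Agent.P331.H342
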